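import Vale.Agent.P159.T1.NC.Main
import Vale.Agent.P159.T1.NC.H254.OrderNC
import Vale.Agent.P159.T1.NW.Fin
import Vale.Agent.P159.T1.NW.H566.Chi

open Filter Topology Vale.Agent.P159

namespace Vale.Agent.Results.P159.NearCritical

/-- The square-lattice XY model below its critical point. The correlation length `ξ` and the
stiffness at finite scales determine each other up to a power: the stiffness up to the scale `ξ`
obeys a sharp inequality, and the logarithm of `ξ` is comparable to the logarithm of the first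
scale at which the stiffness is at most `2 / π - d`. In a window around the critical point the
two-point function has the exponent of the critical point, and the susceptibility grows at least
like a power. -/
theorem result :
    -- the stiffness and the exponent at the critical point
    (2 / Real.pi ≤ helicity bCrit ∧ 1 / (2 * Real.pi * helicity bCrit) ≤ 1 / 4) ∧
    -- the stiffness at all scales up to the correlation length
    (∀ ε : ℝ, 0 < ε → ∃ K : ℝ, 0 < K ∧ ∀ b : ℝ, 0 < b → b < bCrit →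
      ∀ L : ℕ, 1 ≤ L → (L : ℝ) ≤ corrLength b →
        (2 / Real.pi - stiff L b) * (Real.log (corrLength b) - Real.log L) ≤
          (helicity bCrit - 2 / Real.pi) * Real.log L + ε * Real.log (corrLength b) + K) ∧
    -- the order of magnitude of the logarithm of the correlation length
    (∀ d : ℝ, 0 < d → d < 2 / Real.pi → ∀ ε : ℝ, 0 < ε →
      ∃ δ : ℝ, 0 < δ ∧ ∀ b : ℝ, bCrit - δ < b → b < bCrit →
        ∃ L : ℕ, IsLeast {l : ℕ | 1 ≤ l ∧ stiff l b ≤ 2 / Real.pi - d} L ∧
          Real.log L ≤ (1 + ε) * Real.log (corrLength b) ∧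
          Real.log (corrLength b) ≤
            (1 + (helicity bCrit - 2 / Real.pi) / d + ε) * Real.log L) ∧
    -- the two-point function in the near critical window: the lower bound
    (∀ ε : ℝ, 0 < ε → ∃ c : ℝ, 0 < c ∧ ∀ b : ℝ, 0 < b → b ≤ bCrit → ∀ x : ℤ × ℤ, x ≠ 0 →
      (bCrit - b) * ((max |x.1| |x.2| : ℤ) : ℝ) ^
        (2 - 2 * (1 / (2 * Real.pi * helicity bCrit)) + ε) ≤ c →
      c * ((max |x.1| |x.2| : ℤ) : ℝ) ^ (-(1 / (2 * Real.pi * helicity bCrit) + ε)) ≤
        corrInf b x) ∧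
    -- the two-point function in the near critical window: both bounds
    (∀ ν : ℝ, 0 < ν → ν * (2 - 2 * (1 / (2 * Real.pi * helicity bCrit))) < 1 →
      ∀ ε : ℝ, 0 < ε → ∃ δ : ℝ, 0 < δ ∧ ∃ K : ℝ, ∀ b : ℝ, bCrit - δ < b → b < bCrit →
        ∀ x : ℤ × ℤ, x ≠ 0 → ((max |x.1| |x.2| : ℤ) : ℝ) ≤ (bCrit - b) ^ (-ν) →
          |Real.log (corrInf b x) + 1 / (2 * Real.pi * helicity bCrit) *
            Real.log ((max |x.1| |x.2| : ℤ) : ℝ)| ≤
            ε * Real.log ((max |x.1| |x.2| : ℤ) : ℝ) + K) ∧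
    -- the susceptibility
    (∀ γ : ℝ, 0 < γ → γ * (2 - 2 * (1 / (2 * Real.pi * helicity bCrit))) <
        2 - 1 / (2 * Real.pi * helicity bCrit) →
      ∃ c : ℝ, 0 < c ∧ ∀ b : ℝ, 0 < b → b < bCrit →
        Summable (corrInf b) ∧ c * (bCrit - b) ^ (-γ) ≤ ∑' x : ℤ × ℤ, corrInf b x) := by
  obtain ⟨h1, h2, h3⟩ := T1.NW.nearCrit T1.NW.H566.stmtChi
  exact ⟨⟨H170.hel_bCrit_ge, T1.NW.kap_le⟩, NC.sharpNC, T1.NC.H254.orderNC NC.sharpNC, h1, h2, h3⟩

end Vale.Agent.Results.P159.NearCritical
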