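import Vale.Agent.P159.T1.S.H711.RHj
import Vale.Agent.P159.T1.S.H530.RHn
import Vale.Agent.P159.T1.S.H568.LocF
import Vale.Agent.P159.T1.S.H897.Loc
import Vale.Agent.P159.T1.S.H172.Win6

open Filter Topology Vale.Agent.P159 Vale.Agent.P159.T1.S.Hv
open Vale.Agent.P159.R2.H254 (bes)

namespace Vale.Agent.Results.P159.RoughHeights

/-- The integer heights dual to the square-lattice XY model. At and above the critical point the
heights are, to leading order, a Gaussian field with logarithmic covariance and the exact constant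
`Y(b) / (2 π)`, where `Y(b)` is the helicity modulus; this constant times the decay exponent of the
two-point function of the spins is `1 / (4 π²)`. Below the critical point the covariances of the
heights decay exponentially and the variance is at most the value at the critical point at the
scale of the correlation length; near the critical point the field is the critical one up to
the scale `(b_c - b)^(-1/2)`. -/
theorem result :
    -- the heights are well defined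
    (∀ b : ℝ, 0 < b → (∀ n : ℤ, 0 < bes b n) ∧ ∀ U : Finset (ℤ × ℤ),
      (Summable fun h : Hts U => hWt b U h.1) ∧ 0 < ∑' h : Hts U, hWt b U h.1 ∧
      ∀ x : ℤ × ℤ, Summable fun h : Hts U => hWt b U h.1 * (h.1 x : ℝ) ^ 2) ∧
    -- the Laplace transform of the heights in a box is that of the Gaussian field with
    -- logarithmic covariance
    (∀ b : ℝ, bCrit ≤ b → ∀ ε : ℝ, 0 < ε → ∃ η C : ℝ, 0 < η ∧
      ∀ n : ℕ, 1 ≤ n → ∀ (T : Finset (ℤ × ℤ)) (z : ℤ × ℤ → ℝ),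
        (∀ x ∈ T, 2 * max |x.1| |x.2| ≤ n) → ∑ x ∈ T, |z x| ≤ η →
          |Real.log (hMean b (Finset.Icc (-(n : ℤ), -(n : ℤ)) ((n : ℤ), (n : ℤ)))
              (fun h => Real.exp (∑ x ∈ T, z x * (h x : ℝ)))) -
            helicity b / (4 * Real.pi) * ∑ x ∈ T, ∑ y ∈ T, z x * z y *
              Real.log (n / (max 1 ((max |(x - y).1| |(x - y).2| : ℤ) : ℝ)))| ≤
            (∑ x ∈ T, |z x|) ^ 2 * (ε * Real.log n + C)) ∧
    -- the Laplace transform of the neutral combinations, uniformly in the domain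
    (∀ b : ℝ, bCrit ≤ b → ∀ ε : ℝ, 0 < ε → ∃ η C : ℝ, 0 < η ∧
      ∀ R : ℕ, 1 ≤ R → ∀ (T : Finset (ℤ × ℤ)) (z : ℤ × ℤ → ℝ),
        (∀ x ∈ T, ∀ y ∈ T, max |(x - y).1| |(x - y).2| ≤ (R : ℤ)) →
        ∑ x ∈ T, z x = 0 → ∑ x ∈ T, |z x| ≤ η → ∀ U : Finset (ℤ × ℤ),
          (∀ u : ℤ × ℤ, (∃ x ∈ T, 2 * max |(u - x).1| |(u - x).2| ≤ (R : ℤ)) → u ∈ U) →
          |Real.log (hMean b U (fun h => Real.exp (∑ x ∈ T, z x * (h x : ℝ)))) +
            1 / 2 * ∑ x ∈ T, ∑ y ∈ T, z x * z y * (helicity b / (2 * Real.pi) *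
              Real.log (max 1 ((max |(x - y).1| |(x - y).2| : ℤ) : ℝ)))| ≤
            (∑ x ∈ T, |z x|) ^ 2 * (ε * Real.log R + C)) ∧
    -- the central limit theorem for the height at the centre of a box
    (∀ b : ℝ, bCrit ≤ b → ∀ t : ℝ,
      Tendsto (fun n : ℕ => hMean b (Finset.Icc (-(n : ℤ), -(n : ℤ)) ((n : ℤ), (n : ℤ)))
        (fun h => Real.exp (t * (h 0 : ℝ) / Real.sqrt (Real.log n)))) atTop
        (𝓝 (Real.exp (t ^ 2 * (helicity b / (4 * Real.pi)))))) ∧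
    -- the covariance of the heights in a box
    (∀ b : ℝ, bCrit ≤ b → ∀ ε : ℝ, 0 < ε → ∃ C : ℝ, ∀ n : ℕ, 1 ≤ n →
      ∀ x y : ℤ × ℤ, 2 * max |x.1| |x.2| ≤ n → 2 * max |y.1| |y.2| ≤ n →
        |hMean b (Finset.Icc (-(n : ℤ), -(n : ℤ)) ((n : ℤ), (n : ℤ)))
            (fun h => (h x : ℝ) * h y) -
          helicity b / (2 * Real.pi) *
            Real.log (n / (max 1 ((max |(x - y).1| |(x - y).2| : ℤ) : ℝ)))| ≤
          ε * Real.log n + C) ∧
    -- the covariance of the heights in a box, near the critical point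
    (∀ ε : ℝ, 0 < ε → ∃ d : ℝ, 0 < d ∧ ∃ C : ℝ, ∀ b : ℝ, 0 < b → b ≤ bCrit →
      ∀ n : ℕ, 1 ≤ n → (bCrit - b) * (n : ℝ) ^ 2 ≤ d →
        ∀ x y : ℤ × ℤ, 2 * max |x.1| |x.2| ≤ n → 2 * max |y.1| |y.2| ≤ n →
          |hMean b (Finset.Icc (-(n : ℤ), -(n : ℤ)) ((n : ℤ), (n : ℤ)))
              (fun h => (h x : ℝ) * h y) -
            helicity bCrit / (2 * Real.pi) *
              Real.log (n / (max 1 ((max |(x - y).1| |(x - y).2| : ℤ) : ℝ)))| ≤
            ε * Real.log n + C) ∧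
    -- the Laplace transform of the heights in a box, near the critical point
    (∀ ε : ℝ, 0 < ε → ∃ η d C : ℝ, 0 < η ∧ 0 < d ∧ ∀ b : ℝ, 0 < b → b ≤ bCrit →
      ∀ n : ℕ, 1 ≤ n → (bCrit - b) * (n : ℝ) ^ 2 ≤ d →
        ∀ (T : Finset (ℤ × ℤ)) (z : ℤ × ℤ → ℝ),
          (∀ x ∈ T, 2 * max |x.1| |x.2| ≤ (n : ℤ)) → ∑ x ∈ T, |z x| ≤ η →
            |Real.log (hMean b (Finset.Icc (-(n : ℤ), -(n : ℤ)) ((n : ℤ), (n : ℤ)))
                (fun h => Real.exp (∑ x ∈ T, z x * (h x : ℝ)))) -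
              1 / 2 * ∑ x ∈ T, ∑ y ∈ T, z x * z y * (helicity bCrit / (2 * Real.pi) *
                Real.log (n / (max 1 ((max |(x - y).1| |(x - y).2| : ℤ) : ℝ))))| ≤
              (∑ x ∈ T, |z x|) ^ 2 * (ε * Real.log n + C)) ∧
    -- the Laplace transform of the neutral combinations, near the critical point
    (∀ ε : ℝ, 0 < ε → ∃ η d C : ℝ, 0 < η ∧ 0 < d ∧ ∀ b : ℝ, 0 < b → b ≤ bCrit →
      ∀ R : ℕ, 1 ≤ R → (bCrit - b) * (R : ℝ) ^ 2 ≤ d →
        ∀ (T : Finset (ℤ × ℤ)) (z : ℤ × ℤ → ℝ),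
          (∀ x ∈ T, ∀ y ∈ T, max |(x - y).1| |(x - y).2| ≤ (R : ℤ)) →
          ∑ x ∈ T, z x = 0 → ∑ x ∈ T, |z x| ≤ η → ∀ U : Finset (ℤ × ℤ),
            (∀ u : ℤ × ℤ, (∃ x ∈ T, 2 * max |(u - x).1| |(u - x).2| ≤ (R : ℤ)) → u ∈ U) →
            |Real.log (hMean b U (fun h => Real.exp (∑ x ∈ T, z x * (h x : ℝ)))) +
              1 / 2 * ∑ x ∈ T, ∑ y ∈ T, z x * z y * (helicity bCrit / (2 * Real.pi) *
                Real.log (max 1 ((max |(x - y).1| |(x - y).2| : ℤ) : ℝ)))| ≤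
              (∑ x ∈ T, |z x|) ^ 2 * (ε * Real.log R + C)) ∧
    -- the height differences, uniformly in the domain
    (∀ b : ℝ, bCrit ≤ b → ∀ ε : ℝ, 0 < ε → ∃ C : ℝ,
      ∀ x y : ℤ × ℤ, x ≠ y → ∀ U : Finset (ℤ × ℤ),
        (∀ z : ℤ × ℤ, 2 * max |(z - x).1| |(z - x).2| ≤ max |(x - y).1| |(x - y).2| ∨
          2 * max |(z - y).1| |(z - y).2| ≤ max |(x - y).1| |(x - y).2| → z ∈ U) →
        |hMean b U (fun h => ((h x : ℝ) - h y) ^ 2) -
          helicity b / Real.pi * Real.log ((max |(x - y).1| |(x - y).2| : ℤ) : ℝ)| ≤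
          ε * Real.log ((max |(x - y).1| |(x - y).2| : ℤ) : ℝ) + C) ∧
    -- the constant
    (1 / Real.pi ^ 2 ≤ helicity bCrit / (2 * Real.pi) ∧
      StrictMonoOn (fun b : ℝ => helicity b / (2 * Real.pi)) (Set.Ici bCrit)) ∧
    -- the constant of the heights times the exponent of the spins
    (∀ b : ℝ, bCrit ≤ b →
      Tendsto (fun n : ℕ => (hMean b (Finset.Icc (-(n : ℤ), -(n : ℤ)) ((n : ℤ), (n : ℤ)))
        (fun h => (h 0 : ℝ) ^ 2) / Real.log n) *
          (-Real.log (corrInf b ((n : ℤ), 0)) / Real.log n)) atTop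
        (𝓝 (1 / (4 * Real.pi ^ 2)))) ∧
    -- below the critical point: an explicit bound by the correlation length
    (∀ b : ℝ, 0 < b → b < bCrit → ∀ (U : Finset (ℤ × ℤ)) (x : ℤ × ℤ),
      hMean b U (fun h => (h x : ℝ) ^ 2) ≤ (b * corrLength b / 2) ^ 2) ∧
    -- below the critical point: exponential decay of the covariances
    (∀ b : ℝ, 0 < b → b < bCrit → ∀ (n : ℕ) (x y : ℤ × ℤ),
      |hMean b (Finset.Icc (-(n : ℤ), -(n : ℤ)) ((n : ℤ), (n : ℤ)))
          (fun h => (h x : ℝ) * (h y : ℝ))| ≤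
        (b * corrLength b / 2) ^ 2 *
          Real.exp (-(2 * ((max |x.1 - y.1| |x.2 - y.2| : ℤ) : ℝ) / corrLength b))) ∧
    -- below the critical point: the value at the critical point at the scale of the
    -- correlation length, uniformly in the temperature
    (∀ ε : ℝ, 0 < ε → ∃ K : ℝ, ∀ b : ℝ, 0 < b → b < bCrit →
      ∀ (U : Finset (ℤ × ℤ)) (x : ℤ × ℤ), hMean b U (fun h => (h x : ℝ) ^ 2) ≤
        (helicity bCrit / (2 * Real.pi) + ε) * max 0 (Real.log (corrLength b)) + K) ∧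
    -- off the axis correlations are larger
    (∀ b : ℝ, 0 ≤ b → ∀ x1 x2 : ℕ,
      corrInf b (((x1 + x2 : ℕ) : ℤ), 0) ≤ corrInf b ((x1 : ℤ), (x2 : ℤ))) :=
  ⟨well_def, laplaceS, H530.joint_neutral', clt', cov_log', T1.S.H172.Win.cov_win,
    T1.S.H172.Win.joint_win, T1.S.H172.Win.neutral_win, height_diff2',
    ⟨const_ge, const_mono⟩, prod_rel, T1.S.Loc.loc_xi, T1.S.Loc.cov_loc, T1.S.H897.loc_sharp',
    T1.F.mms_all⟩

end Vale.Agent.Results.P159.RoughHeights
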