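import Vale.Agent.P159.T1.F.SharpFin

open Filter Topology Vale.Agent.P159 Vale.Agent.P159.H950

namespace Vale.Agent.Results.P159.SharpExponent

/-- The square-lattice XY model at and above its critical point: the exponent of the two-point
function exists and is `1 / (2 π Y(b))`, where `Y(b)` is the helicity modulus; at the critical
point it is at most `1 / 4`, with equality if and only if `Y` is `2 / π` there. All neutral
correlations of integer charges are given by the Coulomb gas formula, up to a factor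
`N ^ o(1)`. -/
theorem result :
    -- the exponent of the two-point function exists at and above the critical point
    (∀ b : ℝ, bCrit ≤ b → Tendsto (fun x : ℤ × ℤ => Real.log (corrInf b x) /
      Real.log ((max |x.1| |x.2| : ℤ) : ℝ)) cofinite
      (𝓝 (-(1 / (2 * Real.pi * helicity b))))) ∧
    -- its values
    (1 / (7 * Real.pi) < 1 / (2 * Real.pi * helicity bCrit) ∧
      1 / (2 * Real.pi * helicity bCrit) ≤ 1 / 4 ∧
      StrictAntiOn (fun b : ℝ => 1 / (2 * Real.pi * helicity b)) (Set.Ici bCrit)) ∧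
    -- the lower bound with the power `1 / 4` at the critical point
    (∀ ε : ℝ, 0 < ε → ∃ c : ℝ, 0 < c ∧ ∀ x : ℤ × ℤ, x ≠ 0 →
      c * ((max |x.1| |x.2| : ℤ) : ℝ) ^ (-(1 / 4 + ε)) ≤ corrInf bCrit x) ∧
    -- the power `1 / 4` is the true one if and only if the helicity modulus is `2 / π`
    ((∀ ε : ℝ, 0 < ε → ∃ K : ℝ, ∀ x : ℤ × ℤ, x ≠ 0 →
      corrInf bCrit x ≤ K * ((max |x.1| |x.2| : ℤ) : ℝ) ^ (-(1 / 4 - ε))) ↔
      helicity bCrit = 2 / Real.pi) ∧
    -- the exponents of all charges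
    (∀ b : ℝ, bCrit ≤ b → ∀ q : ℕ, 1 ≤ q →
      Tendsto (fun x : ℤ × ℤ => Real.log (chargeInf b ![(q : ℤ), -(q : ℤ)] ![0, x]) /
        Real.log ((max |x.1| |x.2| : ℤ) : ℝ)) cofinite
        (𝓝 (-((q : ℝ) ^ 2 / (2 * Real.pi * helicity b))))) ∧
    -- the Coulomb gas formula for all neutral correlations at all positions
    (∀ b : ℝ, bCrit ≤ b → ∀ (k : ℕ) (m : Fin k → ℤ), ∑ j, m j = 0 → ∀ ε : ℝ, 0 < ε →
      ∃ K : ℝ, ∀ (x : Fin k → ℤ × ℤ) (N : ℕ), 1 ≤ N →
        (∀ i j, max |(x i - x j).1| |(x i - x j).2| ≤ (N : ℤ)) →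
        0 < chargeInf b m x ∧
          |Real.log (chargeInf b m x) - 1 / (4 * Real.pi * helicity b) *
            ∑ i, ∑ j, (m i * m j : ℝ) *
              Real.log (max 1 ((max |(x i - x j).1| |(x i - x j).2| : ℤ) : ℝ))| ≤
            ε * Real.log N + K) :=
  T1.F.sharpFin

end Vale.Agent.Results.P159.SharpExponent
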